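import Mathlib
import Vale.Agent.Lib.P037.Cover
import Vale.Agent.Lib.P037.Packing

/-!
# P037, identity pattern, part 2: the cover lemma and the exact packing lemma
-/

namespace Vale.Agent.Lib.P037I

open Finset Vale.Agent.Lib.P037

variable {γ : Type*} [LinearOrder γ]

/-- the set of violating column pairs of an ordered pair of rows with column sets `R`, `R'` -/
def violSet (R R' : Finset γ) : Finset (γ × γ) :=
  ((R \ R') ×ˢ (R' \ R)).filter (fun p => p.1 < p.2)

theorem mem_violSet {R R' : Finset γ} {p : γ × γ} :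
    p ∈ violSet R R' ↔ p.1 < p.2 ∧ p.1 ∈ R ∧ p.2 ∉ R ∧ p.1 ∉ R' ∧ p.2 ∈ R' := by
  simp only [violSet, Finset.mem_filter, Finset.mem_product, Finset.mem_sdiff]
  tauto

/-- a pair of rows with few violating column pairs has a small set of columns meeting all of
them -/
theorem exists_cover (R R' : Finset γ) (s : ℕ) (h : (violSet R R').card ≤ s * (s + 1)) :
    ∃ D : Finset γ, D.card ≤ 2 * s ∧
      ∀ c1 c2, c1 < c2 → c1 ∈ R → c2 ∉ R → c1 ∉ R' → c2 ∈ R' → c1 ∈ D ∨ c2 ∈ D := by
  classical
  set X := R \ R' with hX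
  set Y := R' \ R with hY
  set Ytop := Y.filter (fun y => (Y.filter (fun z => y < z)).card < s) with hYtop
  set Xbad := X.filter (fun x => ∃ y ∈ Y, y ∉ Ytop ∧ x < y) with hXbad
  have h1 : Ytop.card ≤ s := card_top_le Y s
  have h2 : Xbad.card * (s + 1) ≤ (violSet R R').card := by
    have hsub : Xbad.sigma (fun x => Y.filter (fun z => x < z)) ⊆
        (violSet R R').map ⟨fun p => (⟨p.1, p.2⟩ : Σ _ : γ, γ), by
          intro p q hpq
          simp only [Sigma.mk.injEq, heq_eq_eq] at hpq
          exact Prod.ext hpq.1 hpq.2⟩ := by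
      intro p hp
      rw [Finset.mem_sigma] at hp
      rw [Finset.mem_map]
      refine ⟨(p.1, p.2), ?_, rfl⟩
      have hp1 := Finset.mem_filter.mp hp.1
      have hp2 := Finset.mem_filter.mp hp.2
      simp only [violSet, Finset.mem_filter, Finset.mem_product]
      exact ⟨⟨hp1.1, hp2.1⟩, hp2.2⟩
    have hcard := Finset.card_le_card hsub
    rw [Finset.card_map, Finset.card_sigma] at hcard
    refine le_trans ?_ hcard
    rw [← smul_eq_mul]
    apply Finset.card_nsmul_le_sum
    intro x hx
    obtain ⟨_, y, hyY, hyT, hxy⟩ := Finset.mem_filter.mp hx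
    have h3 : s ≤ (Y.filter (fun z => y < z)).card := by
      by_contra hlt
      exact hyT (Finset.mem_filter.mpr ⟨hyY, not_le.mp hlt⟩)
    have h4 : insert y (Y.filter (fun z => y < z)) ⊆ Y.filter (fun z => x < z) := by
      intro z hz
      rcases Finset.mem_insert.mp hz with rfl | hz
      · exact Finset.mem_filter.mpr ⟨hyY, hxy⟩
      · have := Finset.mem_filter.mp hz
        exact Finset.mem_filter.mpr ⟨this.1, hxy.trans this.2⟩
    have h5 := Finset.card_le_card h4
    rw [Finset.card_insert_of_notMem (by simp)] at h5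
    omega
  have h3 : Xbad.card ≤ s := by
    have : Xbad.card * (s + 1) ≤ s * (s + 1) := h2.trans h
    exact Nat.le_of_mul_le_mul_right this (Nat.succ_pos s)
  refine ⟨Ytop ∪ Xbad, ?_, ?_⟩
  · have := Finset.card_union_le Ytop Xbad
    omega
  · intro c1 c2 h12 hc1 hc2 hc1' hc2'
    by_cases hT : c2 ∈ Ytop
    · exact Or.inr (Finset.mem_union_left _ hT)
    · refine Or.inl (Finset.mem_union_right _ ?_)
      refine Finset.mem_filter.mpr ⟨Finset.mem_sdiff.mpr ⟨hc1, hc1'⟩, c2, ?_, hT, h12⟩
      exact Finset.mem_sdiff.mpr ⟨hc2', hc2⟩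

variable {ρ : Type*} [LinearOrder ρ]

open Classical in
/-- the column pairs on which some row of `P` at or above `i` descends -/
noncomputable def DD [Fintype γ] (P : Finset ρ) (A : ρ → Finset γ) (i : ρ) : Finset (γ × γ) :=
  Finset.univ.filter (fun p => p.1 < p.2 ∧ ∃ q ∈ P, q ≤ i ∧ p.1 ∈ A q ∧ p.2 ∉ A q)

theorem DD_mono [Fintype γ] (P : Finset ρ) (A : ρ → Finset γ) {i j : ρ} (h : i ≤ j) :
    DD P A i ⊆ DD P A j := by
  intro p hp
  obtain ⟨_, h1, q, hq, hqi, h2, h3⟩ := Finset.mem_filter.mp hp
  exact Finset.mem_filter.mpr ⟨Finset.mem_univ _, h1, q, hq, hqi.trans h, h2, h3⟩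

theorem DD_card_le [Fintype γ] (P : Finset ρ) (A : ρ → Finset γ) (i : ρ) :
    (DD P A i).card ≤ Fintype.card γ ^ 2 := by
  have := Finset.card_le_univ (DD P A i)
  rwa [Fintype.card_prod, ← pow_two] at this

/-- key step of the packing lemma -/
theorem prod_le_DD [Fintype γ] (P : Finset ρ) (A : ρ → Finset γ)
    (hG : ∀ q ∈ P, ∀ q' ∈ P, q < q' → ∀ x y, x < y → x ∈ A q → y ∉ A q → y ∈ A q' → x ∈ A q')
    {i j : ρ} (hi : i ∈ P) (hj : j ∈ P) (hij : i < j) :
    (A j \ A i).card * (A i \ A j).card + (DD P A i).card ≤ (DD P A j).card := by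
  classical
  rw [← Finset.card_product]
  rw [← Finset.card_union_of_disjoint]
  · apply Finset.card_le_card
    intro p hp
    rcases Finset.mem_union.mp hp with hp | hp
    · obtain ⟨h1, h2⟩ := Finset.mem_product.mp hp
      obtain ⟨a1, a2⟩ := Finset.mem_sdiff.mp h1
      obtain ⟨b1, b2⟩ := Finset.mem_sdiff.mp h2
      have hlt : p.1 < p.2 := by
        rcases lt_trichotomy p.1 p.2 with h | h | h
        · exact h
        · rw [h] at a2
          exact (a2 b1).elim
        · exact (b2 (hG i hi j hj hij p.2 p.1 h b1 a2 a1)).elim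
      exact Finset.mem_filter.mpr ⟨Finset.mem_univ _, hlt, j, hj, le_refl _, a1, b2⟩
    · exact DD_mono P A hij.le hp
  · rw [Finset.disjoint_left]
    intro p hp hp'
    obtain ⟨h1, h2⟩ := Finset.mem_product.mp hp
    obtain ⟨a1, a2⟩ := Finset.mem_sdiff.mp h1
    obtain ⟨b1, b2⟩ := Finset.mem_sdiff.mp h2
    obtain ⟨_, hlt, q, hq, hqi, c1, c2⟩ := Finset.mem_filter.mp hp'
    rcases hqi.lt_or_eq with h | h
    · exact a2 (hG q hq i hi h p.1 p.2 hlt c1 c2 b1)
    · subst h
      exact c2 b1

theorem exact_packing [Fintype γ] (P : Finset ρ) (A : ρ → Finset γ) (a : ℕ) (ha : 1 ≤ a)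
    (hG : ∀ q ∈ P, ∀ q' ∈ P, q < q' → ∀ x y, x < y → x ∈ A q → y ∉ A q → y ∈ A q' → x ∈ A q')
    (hfar : ∀ q ∈ P, ∀ q' ∈ P, q ≠ q' → 4 * a ≤ sd (A q) (A q')) :
    P.card ≤ (Fintype.card γ ^ 2 / a ^ 2 + 1) * (Fintype.card γ / (2 * a) + 1) := by
  classical
  set n := Fintype.card γ with hn
  have hpos2 : 0 < a ^ 2 := by positivity
  have hpos : 0 < 2 * a := by omega
  have h := Finset.card_le_card_of_injOn (s := P)
    (t := Finset.range (n ^ 2 / a ^ 2 + 1) ×ˢ Finset.range (n / (2 * a) + 1))
    (fun i => ((DD P A i).card / a ^ 2, (A i).card / (2 * a))) ?_ ?_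
  · rwa [Finset.card_product, Finset.card_range, Finset.card_range] at h
  · intro i _
    simp only [Finset.coe_product, Finset.coe_range, Set.mem_prod, Set.mem_Iio]
    constructor
    · have := Nat.div_le_div_right (c := a ^ 2) (DD_card_le P A i)
      rw [← hn] at this
      omega
    · have h1 : (A i).card ≤ n := Finset.card_le_univ _
      have := Nat.div_le_div_right (c := 2 * a) h1
      omega
  · have key : ∀ i ∈ P, ∀ j ∈ P, i < j → (DD P A i).card / a ^ 2 = (DD P A j).card / a ^ 2 →
        (A i).card / (2 * a) = (A j).card / (2 * a) → False := by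
      intro i hi j hj hij h1 h2
      have h3 := prod_le_DD P A hG hi hj hij
      have h4 : (DD P A j).card < (DD P A i).card + a ^ 2 := by
        have e1 : (DD P A j).card < ((DD P A i).card / a ^ 2 + 1) * a ^ 2 :=
          (Nat.div_lt_iff_lt_mul hpos2).mp (Nat.lt_succ_iff.mpr (le_of_eq h1.symm))
        have e2 : (DD P A i).card / a ^ 2 * a ^ 2 ≤ (DD P A i).card :=
          Nat.div_mul_le_self _ _
        have e3 : ((DD P A i).card / a ^ 2 + 1) * a ^ 2
            = (DD P A i).card / a ^ 2 * a ^ 2 + a ^ 2 := by ring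
        omega
      have h5 : (A j \ A i).card * (A i \ A j).card < a ^ 2 := by omega
      have h6 := hfar i hi j hj hij.ne
      unfold sd at h6
      have h7 := card_eq_inter_add (A i) (A j)
      have h8 := card_eq_inter_add (A j) (A i)
      rw [Finset.inter_comm] at h8
      have h9 : (A j \ A i).card < a ∨ (A i \ A j).card < a := by
        by_contra hcon
        simp only [not_or, not_lt] at hcon
        have := Nat.mul_le_mul hcon.1 hcon.2
        rw [← pow_two] at this
        omega
      have e1 := Nat.div_add_mod (A i).card (2 * a)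
      have e2 := Nat.div_add_mod (A j).card (2 * a)
      have e3 := Nat.mod_lt (A i).card hpos
      have e4 := Nat.mod_lt (A j).card hpos
      rw [← h2] at e2
      rcases h9 with h9 | h9 <;> omega
    intro i hi j hj hij
    simp only [Prod.mk.injEq] at hij
    by_contra hne
    rcases lt_or_gt_of_ne hne with h | h
    · exact key i hi j hj h hij.1 hij.2
    · exact key j hj i hi h hij.1.symm hij.2.symm

end Vale.Agent.Lib.P037I
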