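import Mathlib

/-!
# P037, identity pattern, part 1: the extension lemma

A family of column sets `A q` (`q ∈ Q`, the anchor rows) is `IFam` if it contains no ordered copy
of the pattern with rows (1,0),(0,1).  Given such an exact skeleton, the anchors at or above a row
position `r` induce a linear order on the columns; every initial segment of this order can be put
in row `r`, and the resulting full family is again free of the pattern.
-/

namespace Vale.Agent.Lib.P037I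

set_option linter.unusedSectionVars false

variable {ρ γ : Type*} [LinearOrder ρ] [LinearOrder γ]

/-- The family `A` restricted to the rows of `Q` has no copy of the pattern (1,0),(0,1). -/
def IFam (Q : Set ρ) (A : ρ → Set γ) : Prop :=
  ∀ q ∈ Q, ∀ q' ∈ Q, q < q' → ∀ x y, x < y → x ∈ A q → y ∉ A q → y ∈ A q' → x ∈ A q'

/-- some anchor of `E` contains `x` and misses `y` -/
def Dsc (E : Set ρ) (A : ρ → Set γ) (x y : γ) : Prop :=
  ∃ q ∈ E, x ∈ A q ∧ y ∉ A q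

/-- the order on the columns induced by the anchors of `E` -/
def Lt (E : Set ρ) (A : ρ → Set γ) (x y : γ) : Prop :=
  (x < y ∧ Dsc E A x y) ∨ (y < x ∧ ¬ Dsc E A y x)

theorem Dsc.mono {E E' : Set ρ} {A : ρ → Set γ} (h : E ⊆ E') {x y : γ} (hs : Dsc E A x y) :
    Dsc E' A x y := by
  obtain ⟨q, hq, h1, h2⟩ := hs
  exact ⟨q, h hq, h1, h2⟩

theorem Lt_total (E : Set ρ) (A : ρ → Set γ) {x y : γ} (h : x ≠ y) : Lt E A x y ∨ Lt E A y x := by
  rcases lt_or_gt_of_ne h with h1 | h1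
  · by_cases h2 : Dsc E A x y
    · exact Or.inl (Or.inl ⟨h1, h2⟩)
    · exact Or.inr (Or.inr ⟨h1, h2⟩)
  · by_cases h2 : Dsc E A y x
    · exact Or.inr (Or.inl ⟨h1, h2⟩)
    · exact Or.inl (Or.inr ⟨h1, h2⟩)

/-- two anchors cannot show the patterns 101 and 010 on three columns -/
theorem no_zigzag {Q : Set ρ} {A : ρ → Set γ} (hG : IFam Q A) {q q' : ρ} (hq : q ∈ Q)
    (hq' : q' ∈ Q) {x y z : γ} (hxy : x < y) (hyz : y < z)
    (h1 : x ∈ A q) (h2 : y ∉ A q) (h3 : z ∈ A q) (h4 : x ∉ A q') (h5 : y ∈ A q')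
    (h6 : z ∉ A q') : False := by
  rcases lt_trichotomy q q' with h | h | h
  · exact h4 (hG q hq q' hq' h x y hxy h1 h2 h5)
  · subst h
    exact h4 h1
  · exact h2 (hG q' hq' q hq h y z hyz h5 h6 h3)

theorem Lt_trans {Q : Set ρ} {A : ρ → Set γ} (hG : IFam Q A) {E : Set ρ} (hE : E ⊆ Q)
    {x y z : γ} (hxy : Lt E A x y) (hyz : Lt E A y z) : Lt E A x z := by
  rcases hxy with ⟨h1, q, hq, a1, a2⟩ | ⟨h1, n1⟩
  · rcases hyz with ⟨h2, q', hq', b1, b2⟩ | ⟨h2, n2⟩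
    · -- x < y < z
      refine Or.inl ⟨h1.trans h2, ?_⟩
      by_cases c1 : z ∈ A q
      · by_cases c2 : x ∈ A q'
        · exact ⟨q', hq', c2, b2⟩
        · exact (no_zigzag hG (hE hq) (hE hq') h1 h2 a1 a2 c1 c2 b1 b2).elim
      · exact ⟨q, hq, a1, c1⟩
    · -- x < y, z < y
      have c1 : z ∉ A q := fun c => n2 ⟨q, hq, c, a2⟩
      rcases lt_trichotomy x z with h3 | h3 | h3
      · exact Or.inl ⟨h3, q, hq, a1, c1⟩
      · subst h3
        exact (c1 a1).elim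
      · -- z < x < y
        refine Or.inr ⟨h3, ?_⟩
        rintro ⟨q', hq', b1, b2⟩
        have c2 : y ∈ A q' := by
          by_contra c
          exact n2 ⟨q', hq', b1, c⟩
        exact no_zigzag hG (hE hq') (hE hq) h3 h1 b1 b2 c2 c1 a1 a2
  · rcases hyz with ⟨h2, q', hq', b1, b2⟩ | ⟨h2, n2⟩
    · -- y < x, y < z
      have c1 : x ∈ A q' := by
        by_contra c
        exact n1 ⟨q', hq', b1, c⟩
      rcases lt_trichotomy x z with h3 | h3 | h3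
      · exact Or.inl ⟨h3, q', hq', c1, b2⟩
      · subst h3
        exact (b2 c1).elim
      · -- y < z < x
        refine Or.inr ⟨h3, ?_⟩
        rintro ⟨q, hq, a1, a2⟩
        have c2 : y ∉ A q := fun c => n1 ⟨q, hq, c, a2⟩
        exact no_zigzag hG (hE hq') (hE hq) h2 h3 b1 b2 c1 c2 a1 a2
    · -- z < y < x
      refine Or.inr ⟨h2.trans h1, ?_⟩
      rintro ⟨q, hq, a1, a2⟩
      by_cases c : y ∈ A q
      · exact n1 ⟨q, hq, c, a2⟩
      · exact n2 ⟨q, hq, a1, c⟩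

/-- the initial segment generated by `F` -/
def Pre (E : Set ρ) (A : ρ → Set γ) (F : Set γ) : Set γ :=
  {x | ∃ y ∈ F, x = y ∨ Lt E A x y}

theorem subset_Pre (E : Set ρ) (A : ρ → Set γ) (F : Set γ) : F ⊆ Pre E A F :=
  fun x hx => ⟨x, hx, Or.inl rfl⟩

theorem Pre_down {Q : Set ρ} {A : ρ → Set γ} (hG : IFam Q A) {E : Set ρ} (hE : E ⊆ Q)
    {F : Set γ} {x y : γ} (hy : y ∈ Pre E A F) (hxy : Lt E A x y) : x ∈ Pre E A F := by
  obtain ⟨w, hw, h | h⟩ := hy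
  · subst h
    exact ⟨y, hw, Or.inr hxy⟩
  · exact ⟨w, hw, Or.inr (Lt_trans hG hE hxy h)⟩

/-- The filled-in family. -/
def Fill (Q : Set ρ) (A : ρ → Set γ) (cov : Set ρ) (F : ρ → Set γ) (r : ρ) : Set γ :=
  {y | r ∈ cov ∧ y ∈ Pre {q | q ∈ Q ∧ q ≤ r} A (F r)}

theorem Fill_free {Q : Set ρ} {A : ρ → Set γ} (hG : IFam Q A) (cov : Set ρ) (F : ρ → Set γ) :
    IFam Set.univ (Fill Q A cov F) := by
  intro r1 _ r2 _ h12 c1 c2 hc h1 h2 h3
  obtain ⟨hr1, h1⟩ := h1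
  obtain ⟨hr2, h3⟩ := h3
  have hE1 : {q | q ∈ Q ∧ q ≤ r1} ⊆ Q := fun q hq => hq.1
  have hE2 : {q | q ∈ Q ∧ q ≤ r2} ⊆ Q := fun q hq => hq.1
  have hsub : {q | q ∈ Q ∧ q ≤ r1} ⊆ {q | q ∈ Q ∧ q ≤ r2} :=
    fun q hq => ⟨hq.1, hq.2.trans h12.le⟩
  have hD : Dsc {q | q ∈ Q ∧ q ≤ r1} A c1 c2 := by
    rcases Lt_total {q | q ∈ Q ∧ q ≤ r1} A hc.ne with h | h
    · rcases h with ⟨_, h⟩ | ⟨h, _⟩
      · exact h
      · exact (lt_asymm hc h).elim
    · exact (h2 ⟨hr1, Pre_down hG hE1 h1 h⟩).elim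
  exact ⟨hr2, Pre_down hG hE2 h3 (Or.inl ⟨hc, hD.mono hsub⟩)⟩

theorem Fill_lower {Q : Set ρ} {A : ρ → Set γ} {cov : Set ρ} {F : ρ → Set γ} {r : ρ}
    (hr : r ∈ cov) : F r ⊆ Fill Q A cov F r :=
  fun _ hx => ⟨hr, subset_Pre _ _ _ hx⟩

theorem Fill_upper {Q : Set ρ} {A : ρ → Set γ} (hG : IFam Q A) {cov : Set ρ} {F : ρ → Set γ}
    {r f g : ρ} (hf : f ∈ Q) (hfr : f ≤ r) (hg : g ∈ Q) (hrg : r ≤ g) (hF : F r ⊆ A f ∩ A g) :
    Fill Q A cov F r ⊆ A f ∪ A g := by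
  rintro x ⟨_, y, hy, h | h⟩
  · subst h
    exact Or.inl (hF hy).1
  · rcases h with ⟨hlt, q, hq, h1, h2⟩ | ⟨hlt, hn⟩
    · right
      rcases (hq.2.trans hrg).lt_or_eq with h3 | h3
      · exact hG q hq.1 g hg h3 x y hlt h1 h2 (hF hy).2
      · subst h3
        exact (h2 (hF hy).2).elim
    · left
      by_contra hx
      exact hn ⟨f, ⟨hf, hfr⟩, (hF hy).1, hx⟩

theorem Fill_empty {Q : Set ρ} {A : ρ → Set γ} {cov : Set ρ} {F : ρ → Set γ} {r : ρ}
    (hr : r ∉ cov) : Fill Q A cov F r = ∅ := by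
  ext y
  simp [Fill, hr]

end Vale.Agent.Lib.P037I
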