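import Mathlib
import Vale.Agent.Lib.P037.Core
import Vale.Agent.Lib.P037I.Ext
import Vale.Agent.Lib.P037I.Cover

/-!
# P037, identity pattern, part 3: greedy anchors and the assembly
(the skeleton of the argument is the one of `Vale.Agent.Lib.P037.Core`)
-/

namespace Vale.Agent.Lib.P037I

open Finset
open Vale.Agent.Lib.P037 (sd sd_comm sd_self greedy sd_sdiff_ge)

set_option linter.unusedSectionVars false

variable {ρ γ : Type*} [LinearOrder ρ] [LinearOrder γ] [Fintype ρ] [Fintype γ]

/-- number of copies of the pattern on the ordered pair of rows `r < r'` (zero otherwise) -/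
def V (R : ρ → Finset γ) (r r' : ρ) : ℕ :=
  if r < r' then (violSet (R r) (R r')).card else 0

/-- total number of copies -/
def Ncop (R : ρ → Finset γ) : ℕ := ∑ r, ∑ r', V R r r'

def heavy (R : ρ → Finset γ) (s : ℕ) (r r' : ρ) : Prop :=
  s * (s + 1) < V R r r' + V R r' r

theorem heavy_comm (R : ρ → Finset γ) (s : ℕ) (r r' : ρ) : heavy R s r r' ↔ heavy R s r' r := by
  unfold heavy
  rw [add_comm (V R r r')]

open Classical in
noncomputable def hnb (R : ρ → Finset γ) (s : ℕ) (r : ρ) : Finset ρ :=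
  Finset.univ.filter (fun r' => heavy R s r r')

def bad (R : ρ → Finset γ) (s κ : ℕ) (r : ρ) : Prop := κ < (hnb R s r).card

open Classical in
noncomputable def badSet (R : ρ → Finset γ) (s κ : ℕ) : Finset ρ :=
  Finset.univ.filter (fun r => bad R s κ r)

theorem bad_count (R : ρ → Finset γ) (s κ : ℕ) :
    (badSet R s κ).card * ((κ + 1) * (s * (s + 1) + 1)) ≤ 2 * Ncop R := by
  classical
  have h1 : ∑ r, ∑ r', (V R r r' + V R r' r) = 2 * Ncop R := by
    simp only [Finset.sum_add_distrib]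
    rw [Finset.sum_comm (f := fun r r' => V R r' r)]
    unfold Ncop
    ring
  rw [← h1]
  calc (badSet R s κ).card * ((κ + 1) * (s * (s + 1) + 1))
      ≤ ∑ r ∈ badSet R s κ, ∑ r' ∈ hnb R s r, (V R r r' + V R r' r) := by
        rw [← smul_eq_mul]
        apply Finset.card_nsmul_le_sum
        intro r hr
        have hr' : κ < (hnb R s r).card := (Finset.mem_filter.mp hr).2
        calc (κ + 1) * (s * (s + 1) + 1) ≤ (hnb R s r).card * (s * (s + 1) + 1) :=
              Nat.mul_le_mul_right _ hr'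
          _ ≤ ∑ r' ∈ hnb R s r, (V R r r' + V R r' r) := by
              rw [← smul_eq_mul]
              apply Finset.card_nsmul_le_sum
              intro r' hr2
              exact (Finset.mem_filter.mp hr2).2
    _ ≤ ∑ r ∈ badSet R s κ, ∑ r', (V R r r' + V R r' r) := by
        apply Finset.sum_le_sum
        intro r _
        exact Finset.sum_le_sum_of_subset (Finset.subset_univ _)
    _ ≤ ∑ r, ∑ r', (V R r r' + V R r' r) :=
        Finset.sum_le_sum_of_subset (Finset.subset_univ _)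

theorem light_viol {R : ρ → Finset γ} {s : ℕ} {q q' : ρ} (hlt : q < q')
    (h : ¬ heavy R s q q') : (violSet (R q) (R q')).card ≤ s * (s + 1) := by
  unfold heavy V at h
  rw [if_pos hlt] at h
  omega

/-- a pairwise light set of rows becomes exactly free after deleting few columns -/
theorem exactify (R : ρ → Finset γ) (s : ℕ) (P : Finset ρ)
    (hl : ∀ q ∈ P, ∀ q' ∈ P, q < q' → ¬ heavy R s q q') :
    ∃ D : Finset γ, D.card ≤ P.card * P.card * (2 * s) ∧
      ∀ q ∈ P, ∀ q' ∈ P, q < q' → ∀ x y, x < y → x ∈ R q \ D → y ∉ R q \ D → y ∈ R q' \ D →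
        x ∈ R q' \ D := by
  classical
  have h1 : ∀ p : ρ × ρ, ∃ D : Finset γ, D.card ≤ 2 * s ∧ (p.1 ∈ P → p.2 ∈ P → p.1 < p.2 →
      ∀ c1 c2, c1 < c2 → c1 ∈ R p.1 → c2 ∉ R p.1 → c1 ∉ R p.2 → c2 ∈ R p.2 →
        c1 ∈ D ∨ c2 ∈ D) := by
    intro p
    by_cases hp : p.1 ∈ P ∧ p.2 ∈ P ∧ p.1 < p.2
    · obtain ⟨D, hD1, hD2⟩ := exists_cover (R p.1) (R p.2) s
        (light_viol hp.2.2 (hl _ hp.1 _ hp.2.1 hp.2.2))
      exact ⟨D, hD1, fun _ _ _ => hD2⟩
    · exact ⟨∅, by simp, fun a b c => absurd ⟨a, b, c⟩ hp⟩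
  choose Dp hDp1 hDp2 using h1
  refine ⟨(P ×ˢ P).biUnion Dp, ?_, ?_⟩
  · have := Finset.card_biUnion_le_card_mul (P ×ˢ P) Dp (2 * s) (fun p _ => hDp1 p)
    rwa [Finset.card_product] at this
  · intro q hq q' hq' hlt x y hxy hx hy hy'
    rw [Finset.mem_sdiff] at hx hy hy' ⊢
    refine ⟨?_, hx.2⟩
    by_contra hxn
    have hyR : y ∉ R q := fun h => hy ⟨h, hy'.2⟩
    have hsub : Dp (q, q') ⊆ (P ×ˢ P).biUnion Dp :=
      Finset.subset_biUnion_of_mem Dp (Finset.mem_product.mpr ⟨hq, hq'⟩)
    rcases hDp2 (q, q') hq hq' hlt x y hxy hx.1 hyR hxn hy'.1 with h | h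
    · exact hx.2 (hsub h)
    · exact hy'.2 (hsub h)

/-- packing bound for pairwise light and pairwise far rows -/
theorem packing_light (R : ρ → Finset γ) (a s K : ℕ) (ha : 1 ≤ a)
    (hK : K = (Fintype.card γ ^ 2 / a ^ 2 + 1) * (Fintype.card γ / (2 * a) + 1))
    (hs : (K + 1) * (K + 1) * (2 * s) ≤ a) (P : Finset ρ)
    (hl : ∀ q ∈ P, ∀ q' ∈ P, q < q' → ¬ heavy R s q q' ∧ 5 * a < sd (R q) (R q')) :
    P.card ≤ K := by
  classical
  by_contra hcon
  obtain ⟨P', hP'sub, hP'card⟩ := Finset.exists_subset_card_eq (s := P) (n := K + 1) (by omega)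
  obtain ⟨D, hD1, hD2⟩ := exactify R s P'
    (fun q hq q' hq' hlt => (hl q (hP'sub hq) q' (hP'sub hq') hlt).1)
  rw [hP'card] at hD1
  have hfar : ∀ q ∈ P', ∀ q' ∈ P', q ≠ q' → 4 * a ≤ sd (R q \ D) (R q' \ D) := by
    have key : ∀ q ∈ P', ∀ q' ∈ P', q < q' → 4 * a ≤ sd (R q \ D) (R q' \ D) := by
      intro q hq q' hq' hlt
      have h1 := (hl q (hP'sub hq) q' (hP'sub hq') hlt).2
      have h2 := sd_sdiff_ge (R q) (R q') D
      omega
    intro q hq q' hq' hne
    rcases lt_or_gt_of_ne hne with h | h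
    · exact key q hq q' hq' h
    · rw [sd_comm]
      exact key q' hq' q hq h
  have := exact_packing P' (fun q => R q \ D) a ha hD2 hfar
  omega

/-- the assembly: an explicit bound for the distance to freeness -/
theorem core (R : ρ → Finset γ) (n a s κ K : ℕ) (hρ : Fintype.card ρ = n)
    (hγ : Fintype.card γ = n) (ha : 1 ≤ a)
    (hK : K = (n ^ 2 / a ^ 2 + 1) * (n / (2 * a) + 1))
    (hs : (K + 1) * (K + 1) * (2 * s) ≤ a) :
    ∃ B : ρ → Finset γ,
      (∀ r1 r2, r1 < r2 → ∀ c1 c2, c1 < c2 → c1 ∈ B r1 → c2 ∉ B r1 → c2 ∈ B r2 → c1 ∈ B r2) ∧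
      ∑ r, sd (B r) (R r) ≤ ((badSet R s κ).card + 2 * K * κ) * n + n * (14 * a) := by
  classical
  subst hγ
  set conf : ρ → ρ → Prop := fun q r => sd (R q) (R r) ≤ 5 * a ∨ heavy R s q r with hconf
  obtain ⟨QL, hQL⟩ := greedy (fun q r : ρ => q < r) wellFounded_lt
    (fun r => ¬ bad R s κ r) conf
  obtain ⟨QR, hQR⟩ := greedy (fun q r : ρ => r < q) wellFounded_gt
    (fun r => ¬ bad R s κ r ∧ ∀ q ∈ QL, ¬ heavy R s q r) conf
  -- pairwise properties
  have hLL : ∀ q ∈ QL, ∀ q' ∈ QL, q < q' → ¬ heavy R s q q' ∧ 5 * a < sd (R q) (R q') := by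
    intro q hq q' hq' hlt
    have h := ((hQL q').mp hq').2 q hq hlt
    simp only [hconf, not_or, not_le] at h
    exact ⟨h.2, h.1⟩
  have hRR : ∀ q ∈ QR, ∀ q' ∈ QR, q < q' → ¬ heavy R s q q' ∧ 5 * a < sd (R q) (R q') := by
    intro q hq q' hq' hlt
    have h := ((hQR q).mp hq).2 q' hq' hlt
    simp only [hconf, not_or, not_le] at h
    rw [heavy_comm, sd_comm]
    exact ⟨h.2, h.1⟩
  have hcL : QL.card ≤ K := packing_light R a s K ha hK hs QL hLL
  have hcR : QR.card ≤ K := packing_light R a s K ha hK hs QR hRR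
  set Q := QL ∪ QR with hQ
  have hcQ : Q.card ≤ 2 * K := by
    have := Finset.card_union_le QL QR
    rw [hQ]
    omega
  have hlight : ∀ q ∈ Q, ∀ q' ∈ Q, q < q' → ¬ heavy R s q q' := by
    intro q hq q' hq' hlt
    rcases Finset.mem_union.mp hq with h1 | h1 <;> rcases Finset.mem_union.mp hq' with h2 | h2
    · exact (hLL q h1 q' h2 hlt).1
    · exact ((hQR q').mp h2).1.2 q h1
    · rw [heavy_comm]
      exact ((hQR q).mp h1).1.2 q' h2
    · exact (hRR q h1 q' h2 hlt).1
  have hgoodQ : ∀ q ∈ Q, (hnb R s q).card ≤ κ := by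
    intro q hq
    rcases Finset.mem_union.mp hq with h1 | h1
    · exact not_lt.mp ((hQL q).mp h1).1
    · exact not_lt.mp ((hQR q).mp h1).1.1
  obtain ⟨D, hD1, hD2⟩ := exactify R s Q hlight
  have hD : D.card ≤ 4 * a := by
    have h1 : Q.card * Q.card * (2 * s) ≤ (2 * K) * (2 * K) * (2 * s) :=
      Nat.mul_le_mul_right _ (Nat.mul_le_mul hcQ hcQ)
    have h2 : (2 * K) * (2 * K) * (2 * s) ≤ 4 * ((K + 1) * (K + 1) * (2 * s)) := by
      have : K * K ≤ (K + 1) * (K + 1) := Nat.mul_le_mul (Nat.le_succ K) (Nat.le_succ K)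
      calc (2 * K) * (2 * K) * (2 * s) = 4 * (K * K * (2 * s)) := by ring
        _ ≤ 4 * ((K + 1) * (K + 1) * (2 * s)) :=
          Nat.mul_le_mul_left _ (Nat.mul_le_mul_right _ this)
    omega
  -- the skeleton
  set A : ρ → Set γ := fun q => ((R q \ D : Finset γ) : Set γ) with hA
  have hG : IFam (Q : Set ρ) A := by
    intro q hq q' hq' hlt x y hxy hx hy hy'
    exact Finset.mem_coe.mpr (hD2 q (Finset.mem_coe.mp hq) q' (Finset.mem_coe.mp hq') hlt x y hxy
      (Finset.mem_coe.mp hx) (fun h => hy (Finset.mem_coe.mpr h)) (Finset.mem_coe.mp hy'))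
  set cov : Set ρ := {r | (∃ f ∈ QL, f ≤ r ∧ sd (R f) (R r) ≤ 5 * a) ∧
    (∃ g ∈ QR, r ≤ g ∧ sd (R g) (R r) ≤ 5 * a)} with hcov
  have hf : ∀ r, ∃ f, r ∈ cov → f ∈ QL ∧ f ≤ r ∧ sd (R f) (R r) ≤ 5 * a := by
    intro r
    by_cases hr : r ∈ cov
    · obtain ⟨f, h1, h2, h3⟩ := hr.1
      exact ⟨f, fun _ => ⟨h1, h2, h3⟩⟩
    · exact ⟨r, fun h => absurd h hr⟩
  have hg : ∀ r, ∃ g, r ∈ cov → g ∈ QR ∧ r ≤ g ∧ sd (R g) (R r) ≤ 5 * a := by
    intro r
    by_cases hr : r ∈ cov
    · obtain ⟨g, h1, h2, h3⟩ := hr.2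
      exact ⟨g, fun _ => ⟨h1, h2, h3⟩⟩
    · exact ⟨r, fun h => absurd h hr⟩
  choose f hf using hf
  choose g hg using hg
  set F : ρ → Set γ := fun r => A (f r) ∩ A (g r) with hF
  have hfree := Fill_free hG cov F
  refine ⟨fun r => Finset.univ.filter (fun y => y ∈ Fill (Q : Set ρ) A cov F r), ?_, ?_⟩
  · intro r1 r2 h12 c1 c2 hc h1 h2 h3
    simp only [Finset.mem_filter, Finset.mem_univ, true_and] at h1 h2 h3 ⊢
    exact hfree r1 (Set.mem_univ _) r2 (Set.mem_univ _) h12 c1 c2 hc h1 h2 h3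
  · -- distance
    have hcovd : ∀ r ∈ cov,
        sd (Finset.univ.filter (fun y => y ∈ Fill (Q : Set ρ) A cov F r)) (R r) ≤ 14 * a := by
      intro r hr
      obtain ⟨hf1, hf2, hf3⟩ := hf r hr
      obtain ⟨hg1, hg2, hg3⟩ := hg r hr
      have hup : Fill (Q : Set ρ) A cov F r ⊆ A (f r) ∪ A (g r) :=
        Fill_upper hG (Finset.mem_coe.mpr (Finset.mem_union_left _ hf1)) hf2
          (Finset.mem_coe.mpr (Finset.mem_union_right _ hg1)) hg2 (le_refl _)
      have hlow : F r ⊆ Fill (Q : Set ρ) A cov F r := Fill_lower hr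
      have h1 : (Finset.univ.filter (fun y => y ∈ Fill (Q : Set ρ) A cov F r)) \ R r ⊆
          (R (f r) \ R r) ∪ (R (g r) \ R r) := by
        intro y hy
        rw [Finset.mem_sdiff, Finset.mem_filter] at hy
        have := hup hy.1.2
        simp only [hA, Finset.coe_sdiff, Set.mem_union, Set.mem_sdiff, Finset.mem_coe] at this
        rcases this with h | h
        · exact Finset.mem_union_left _ (Finset.mem_sdiff.mpr ⟨h.1, hy.2⟩)
        · exact Finset.mem_union_right _ (Finset.mem_sdiff.mpr ⟨h.1, hy.2⟩)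
      have h2 : R r \ (Finset.univ.filter (fun y => y ∈ Fill (Q : Set ρ) A cov F r)) ⊆
          (R r \ R (f r)) ∪ (R r \ R (g r)) ∪ D := by
        intro y hy
        rw [Finset.mem_sdiff, Finset.mem_filter] at hy
        by_contra hcon
        simp only [Finset.mem_union, Finset.mem_sdiff, not_or, not_and, not_not] at hcon
        apply hy.2
        refine ⟨Finset.mem_univ _, hlow ?_⟩
        simp only [hF, hA, Finset.coe_sdiff, Set.mem_inter_iff, Set.mem_sdiff, Finset.mem_coe]
        exact ⟨⟨hcon.1.1 hy.1, hcon.2⟩, ⟨hcon.1.2 hy.1, hcon.2⟩⟩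
      have h3 := (Finset.card_le_card h1).trans (Finset.card_union_le _ _)
      have h4 := (Finset.card_le_card h2).trans ((Finset.card_union_le _ _).trans
        (Nat.add_le_add_right (Finset.card_union_le _ _) _))
      unfold sd at hf3 hg3 ⊢
      omega
    have huncd : ∀ r, r ∉ cov →
        sd (Finset.univ.filter (fun y => y ∈ Fill (Q : Set ρ) A cov F r)) (R r) ≤
          Fintype.card γ := by
      intro r hr
      rw [Fill_empty hr]
      simp only [Set.mem_empty_iff_false, Finset.filter_false, sd, Finset.empty_sdiff,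
        Finset.card_empty, Finset.sdiff_empty, zero_add]
      exact Finset.card_le_univ _
    have hunc : (Finset.univ.filter (fun r => r ∉ cov)).card ≤
        (badSet R s κ).card + 2 * K * κ := by
      have hsub : Finset.univ.filter (fun r => r ∉ cov) ⊆
          badSet R s κ ∪ Q.biUnion (fun q => hnb R s q) := by
        intro r hr
        have hr' : r ∉ cov := (Finset.mem_filter.mp hr).2
        by_contra hcon
        rw [Finset.mem_union, not_or] at hcon
        obtain ⟨hb, hh⟩ := hcon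
        have hb' : ¬ bad R s κ r := fun h => hb (Finset.mem_filter.mpr ⟨Finset.mem_univ _, h⟩)
        have hh' : ∀ q ∈ Q, ¬ heavy R s q r := by
          intro q hq hqr
          exact hh (Finset.mem_biUnion.mpr ⟨q, hq, Finset.mem_filter.mpr ⟨Finset.mem_univ _, hqr⟩⟩)
        apply hr'
        constructor
        · by_cases hrL : r ∈ QL
          · exact ⟨r, hrL, le_refl _, by rw [sd_self]; omega⟩
          · have h1 := (not_congr (hQL r)).mp hrL
            push Not at h1
            obtain ⟨q, hq, hlt, hc⟩ := h1 hb'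
            rcases hc with hc | hc
            · exact ⟨q, hq, hlt.le, hc⟩
            · exact absurd hc (hh' q (Finset.mem_union_left _ hq))
        · by_cases hrR : r ∈ QR
          · exact ⟨r, hrR, le_refl _, by rw [sd_self]; omega⟩
          · have h1 := (not_congr (hQR r)).mp hrR
            push Not at h1
            obtain ⟨q, hq, hlt, hc⟩ := h1 ⟨hb', fun q hq => hh' q (Finset.mem_union_left _ hq)⟩
            rcases hc with hc | hc
            · exact ⟨q, hq, hlt.le, hc⟩
            · exact absurd hc (hh' q (Finset.mem_union_right _ hq))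
      have h1 := (Finset.card_le_card hsub).trans (Finset.card_union_le _ _)
      have h2 := Finset.card_biUnion_le_card_mul Q (fun q => hnb R s q) κ hgoodQ
      have h3 : Q.card * κ ≤ 2 * K * κ := Nat.mul_le_mul_right _ hcQ
      omega
    calc ∑ r, sd (Finset.univ.filter (fun y => y ∈ Fill (Q : Set ρ) A cov F r)) (R r)
        ≤ ∑ r : ρ, ((if r ∉ cov then 1 else 0) * Fintype.card γ + 14 * a) := by
          apply Finset.sum_le_sum
          intro r _
          by_cases hr : r ∈ cov
          · have := hcovd r hr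
            simp only [hr, not_true_eq_false, if_false]
            omega
          · have := huncd r hr
            simp only [hr, not_false_eq_true, if_true]
            omega
      _ = (Finset.univ.filter (fun r => r ∉ cov)).card * Fintype.card γ
            + Fintype.card γ * (14 * a) := by
          rw [Finset.sum_add_distrib, ← Finset.sum_mul, Finset.sum_boole, Finset.sum_const,
            Finset.card_univ, hρ, smul_eq_mul]
          simp
      _ ≤ ((badSet R s κ).card + 2 * K * κ) * Fintype.card γ + Fintype.card γ * (14 * a) := by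
          apply Nat.add_le_add_right
          exact Nat.mul_le_mul_right _ hunc

end Vale.Agent.Lib.P037I
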