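import Mathlib
import Vale.Agent.Lib.P037.Final
import Vale.Agent.Lib.P037I.Core

/-!
# P037, identity pattern, part 4: choice of parameters, the real form, and the symmetries
-/

namespace Vale.Agent.Lib.P037I

open Finset
open Vale.Agent.Lib.P037 (sd sd_self lt_div_succ_mul arith_bad arith_final copies hamming
  PolyRemoval mem_copies rowSet strictMono_pair hamming_le_sum sel sel_sel sel_mono Tr oddPattern
  all_odd)

set_option linter.unusedSectionVars false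

/-- the polynomial appearing in the integer form -/
def polyP (t : ℕ) : ℕ :=
  1024 * t ^ 2 * (56 * t) ^ 2 * (1 + (4 * (56 * t) ^ 2 + 1) * (56 * t + 1)) ^ 5

theorem arith_small (n t N : ℕ) (ht : 1 ≤ t) (hnd : n < 56 * t) (hN : N * polyP t < n ^ 4) :
    N = 0 := by
  by_contra hne
  have h1 : 1 ≤ N := Nat.one_le_iff_ne_zero.mpr hne
  have h2 : n ^ 4 < (56 * t) ^ 4 := Nat.pow_lt_pow_left hnd (by norm_num)
  have h3 : (56 * t) ^ 4 ≤ polyP t := by
    unfold polyP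
    generalize 56 * t = d
    have h4 : d ^ 2 ≤ (1 + (4 * d ^ 2 + 1) * (d + 1)) ^ 5 := by
      have h5 : d ≤ 1 + (4 * d ^ 2 + 1) * (d + 1) := by nlinarith
      have h6 : 1 ≤ 1 + (4 * d ^ 2 + 1) * (d + 1) := by omega
      calc d ^ 2 ≤ (1 + (4 * d ^ 2 + 1) * (d + 1)) ^ 2 := Nat.pow_le_pow_left h5 2
        _ ≤ (1 + (4 * d ^ 2 + 1) * (d + 1)) ^ 5 := Nat.pow_le_pow_right h6 (by norm_num)
    have h7 : 1 ≤ 1024 * t ^ 2 := by
      have : 1 ≤ t ^ 2 := Nat.one_le_pow _ _ ht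
      omega
    calc d ^ 4 = 1 * d ^ 2 * d ^ 2 := by ring
      _ ≤ 1024 * t ^ 2 * d ^ 2 * (1 + (4 * d ^ 2 + 1) * (d + 1)) ^ 5 :=
        Nat.mul_le_mul (Nat.mul_le_mul_right _ h7) h4
  have h8 : polyP t ≤ N * polyP t := Nat.le_mul_of_pos_left _ h1
  omega

section
variable {ρ γ : Type*} [LinearOrder ρ] [LinearOrder γ] [Fintype ρ] [Fintype γ]

theorem free_of_Ncop_zero (R : ρ → Finset γ) (h : Ncop R = 0) :
    ∀ r1 r2, r1 < r2 → ∀ c1 c2, c1 < c2 → c1 ∈ R r1 → c2 ∉ R r1 → c2 ∈ R r2 → c1 ∈ R r2 := by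
  intro r1 r2 h12 c1 c2 hc h1 h2 h3
  by_contra h4
  unfold Ncop at h
  rw [Finset.sum_eq_zero_iff] at h
  have h5 := h r1 (Finset.mem_univ _)
  rw [Finset.sum_eq_zero_iff] at h5
  have h6 := h5 r2 (Finset.mem_univ _)
  unfold V at h6
  rw [if_pos h12, Finset.card_eq_zero] at h6
  have : (c1, c2) ∈ violSet (R r1) (R r2) := mem_violSet.mpr ⟨hc, h1, h2, h4, h3⟩
  rw [h6] at this
  exact absurd this (Finset.notMem_empty _)

theorem int_removal (R : ρ → Finset γ) (n t : ℕ) (ht : 1 ≤ t) (hρ : Fintype.card ρ = n)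
    (hγ : Fintype.card γ = n) (hN : Ncop R * polyP t < n ^ 4) :
    ∃ B : ρ → Finset γ,
      (∀ r1 r2, r1 < r2 → ∀ c1 c2, c1 < c2 → c1 ∈ B r1 → c2 ∉ B r1 → c2 ∈ B r2 → c1 ∈ B r2) ∧
      t * ∑ r, sd (B r) (R r) < n ^ 2 := by
  have hn0 : 0 < n := by
    rcases Nat.eq_zero_or_pos n with h | h
    · subst h
      simp at hN
    · exact h
  by_cases hnd : n < 56 * t
  · have hN0 : Ncop R = 0 := arith_small n t _ ht hnd hN
    refine ⟨R, free_of_Ncop_zero R hN0, ?_⟩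
    simp only [sd_self, Finset.sum_const_zero, mul_zero]
    positivity
  · simp only [not_lt] at hnd
    obtain ⟨d, hd⟩ : ∃ d, d = 56 * t := ⟨_, rfl⟩
    have hd0 : 0 < d := by omega
    obtain ⟨K1, hK1⟩ : ∃ K1, K1 = 1 + (4 * d ^ 2 + 1) * (d + 1) := ⟨_, rfl⟩
    have hP : polyP t = 1024 * t ^ 2 * d ^ 2 * K1 ^ 5 := by
      rw [hK1, hd]; rfl
    obtain ⟨a, ha⟩ : ∃ a, a = n / d := ⟨_, rfl⟩
    have ha1 : 1 ≤ a := by
      rw [ha]; exact (Nat.one_le_div_iff hd0).mpr (hd ▸ hnd)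
    have hda : d * a ≤ n := by rw [ha]; exact Nat.mul_div_le n d
    have hn2 : n ≤ 2 * d * a := by
      have := lt_div_succ_mul n d hd0
      rw [← ha] at this
      nlinarith
    obtain ⟨K, hK⟩ : ∃ K, K = (n ^ 2 / a ^ 2 + 1) * (n / (2 * a) + 1) := ⟨_, rfl⟩
    have hKK1 : K + 1 ≤ K1 := by
      have h1 : n ^ 2 / a ^ 2 ≤ 4 * d ^ 2 := by
        apply Nat.div_le_of_le_mul
        calc n ^ 2 ≤ (2 * d * a) ^ 2 := Nat.pow_le_pow_left hn2 2
          _ = a ^ 2 * (4 * d ^ 2) := by ring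
      have h2 : n / (2 * a) ≤ d := Nat.div_le_of_le_mul (by nlinarith)
      have h3 : (n ^ 2 / a ^ 2 + 1) * (n / (2 * a) + 1) ≤ (4 * d ^ 2 + 1) * (d + 1) :=
        Nat.mul_le_mul (Nat.succ_le_succ h1) (Nat.succ_le_succ h2)
      omega
    have hK10 : 0 < K1 := by omega
    obtain ⟨s, hs⟩ : ∃ s, s = a / (2 * K1 ^ 2) := ⟨_, rfl⟩
    obtain ⟨κ, hκ⟩ : ∃ κ, κ = n / (8 * t * K1) := ⟨_, rfl⟩
    have hs1 : (K + 1) * (K + 1) * (2 * s) ≤ a := by
      have h1 : (K + 1) * (K + 1) ≤ K1 ^ 2 := by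
        rw [pow_two]; exact Nat.mul_le_mul hKK1 hKK1
      have h2 : 2 * K1 ^ 2 * s ≤ a := by rw [hs]; exact Nat.mul_div_le a _
      calc (K + 1) * (K + 1) * (2 * s) ≤ K1 ^ 2 * (2 * s) := Nat.mul_le_mul_right _ h1
        _ = 2 * K1 ^ 2 * s := by ring
        _ ≤ a := h2
    obtain ⟨B, hB1, hB2⟩ := core R n a s κ K hρ hγ ha1 hK hs1
    refine ⟨B, hB1, ?_⟩
    have hbc := bad_count R s κ
    have hκ1 : 8 * t * K1 * κ ≤ n := by rw [hκ]; exact Nat.mul_div_le n _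
    have hκ2 : n < (κ + 1) * (8 * t * K1) := by
      rw [hκ]; exact lt_div_succ_mul n _ (by positivity)
    have hs2 : a < (s + 1) * (2 * K1 ^ 2) := by
      rw [hs]; exact lt_div_succ_mul a _ (by positivity)
    rw [hP] at hN
    have hbad := arith_bad n t d K1 a s κ _ _ hn2 hκ2 hs2 hbc hN
    exact arith_final n t K K1 κ a _ _ hn0 hbad (by omega) hκ1 (hd ▸ hda) hB2

end

/-- the `2 × 2` identity pattern -/
def idPattern : Fin 2 → Fin 2 → Bool := fun i j => decide (i = j)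

theorem Ncop_le_copies {n : ℕ} (A : Fin n → Fin n → Bool) :
    Ncop (rowSet A) ≤ (copies idPattern A).card := by
  classical
  set S : Finset (Σ _ : Fin n × Fin n, Fin n × Fin n) :=
    (Finset.univ : Finset (Fin n × Fin n)).sigma
      (fun p => if p.1 < p.2 then violSet (rowSet A p.1) (rowSet A p.2) else ∅) with hS
  have hcard : S.card = Ncop (rowSet A) := by
    rw [hS, Finset.card_sigma, Fintype.sum_prod_type]
    unfold Ncop V
    apply Finset.sum_congr rfl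
    intro r _
    apply Finset.sum_congr rfl
    intro r' _
    split_ifs <;> simp
  rw [← hcard]
  apply Finset.card_le_card_of_injOn (fun q => (![q.1.1, q.1.2], ![q.2.1, q.2.2]))
  · intro q hq
    have hq' := (Finset.mem_sigma.mp (Finset.mem_coe.mp hq)).2
    by_cases hlt : q.1.1 < q.1.2
    · rw [if_pos hlt, mem_violSet] at hq'
      obtain ⟨hc, h1, h2, h3, h4⟩ := hq'
      simp only [rowSet, Finset.mem_filter, Finset.mem_univ, true_and, Bool.not_eq_true] at h1 h2 h3 h4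
      refine Finset.mem_coe.mpr (mem_copies.mpr ⟨strictMono_pair hlt, strictMono_pair hc, ?_⟩)
      intro i j
      fin_cases i <;> fin_cases j <;> simp [idPattern, h1, h2, h3, h4]
    · rw [if_neg hlt] at hq'
      exact absurd hq' (Finset.notMem_empty _)
  · intro q _ q' _ h
    simp only [Prod.mk.injEq] at h
    have a1 := congrFun h.1 0
    have a2 := congrFun h.1 1
    have a3 := congrFun h.2 0
    have a4 := congrFun h.2 1
    simp only [Matrix.cons_val_zero, Matrix.cons_val_one] at a1 a2 a3 a4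
    obtain ⟨⟨x1, x2⟩, ⟨x3, x4⟩⟩ := q
    obtain ⟨⟨y1, y2⟩, ⟨y3, y4⟩⟩ := q'
    simp only at a1 a2 a3 a4
    subst a1 a2 a3 a4
    rfl

theorem polyP_le (t : ℕ) (ht : 1 ≤ t) : polyP t ≤ (1024 * 56 ^ 2 * 715066 ^ 5) * t ^ 19 := by
  unfold polyP
  have h1 : 1 + (4 * (56 * t) ^ 2 + 1) * (56 * t + 1) ≤ 715066 * t ^ 3 := by
    have e1 : 1 ≤ t ^ 3 := Nat.one_le_pow _ _ ht
    have e2 : t ≤ t ^ 3 := by
      calc t = t ^ 1 := (pow_one t).symm
        _ ≤ t ^ 3 := Nat.pow_le_pow_right ht (by norm_num)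
    have e3 : t ^ 2 ≤ t ^ 3 := Nat.pow_le_pow_right ht (by norm_num)
    have e4 : 1 + (4 * (56 * t) ^ 2 + 1) * (56 * t + 1)
        = 702464 * t ^ 3 + 12544 * t ^ 2 + 56 * t + 2 := by ring
    omega
  calc 1024 * t ^ 2 * (56 * t) ^ 2 * (1 + (4 * (56 * t) ^ 2 + 1) * (56 * t + 1)) ^ 5
      ≤ 1024 * t ^ 2 * (56 * t) ^ 2 * (715066 * t ^ 3) ^ 5 :=
        Nat.mul_le_mul_left _ (Nat.pow_le_pow_left h1 5)
    _ = (1024 * 56 ^ 2 * 715066 ^ 5) * t ^ 19 := by ring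

theorem copies_empty_of_free {n : ℕ} (B : Fin n → Finset (Fin n))
    (hB : ∀ r1 r2, r1 < r2 → ∀ c1 c2, c1 < c2 → c1 ∈ B r1 → c2 ∉ B r1 → c2 ∈ B r2 → c1 ∈ B r2) :
    copies idPattern (fun r c => decide (c ∈ B r)) = ∅ := by
  rw [Finset.eq_empty_iff_forall_notMem]
  intro p hp
  obtain ⟨h1, h2, h3⟩ := mem_copies.mp hp
  have a00 := h3 0 0
  have a01 := h3 0 1
  have a10 := h3 1 0
  have a11 := h3 1 1
  simp [idPattern] at a00 a01 a10 a11
  exact a10 (hB _ _ (h1 (by decide : (0 : Fin 2) < 1)) _ _ (h2 (by decide : (0 : Fin 2) < 1))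
    a00 a01 a11)

theorem base : PolyRemoval idPattern := by
  obtain ⟨c0, hc0⟩ : ∃ c0 : ℝ, c0 = 1024 * 56 ^ 2 * 715066 ^ 5 := ⟨_, rfl⟩
  have hc0pos : 0 < c0 := by rw [hc0]; positivity
  refine ⟨1 / (c0 * 2 ^ 19), by positivity, 19, by norm_num, ?_⟩
  intro n ε A hε0 hε1 hfar
  by_contra hcon
  simp only [not_le] at hcon
  obtain ⟨t, ht⟩ : ∃ t : ℕ, t = ⌈1 / ε⌉₊ := ⟨_, rfl⟩
  have ht1 : 1 ≤ t := by
    rw [ht]; exact Nat.ceil_pos.mpr (by positivity)
  have htl : 1 / ε ≤ (t : ℝ) := by rw [ht]; exact Nat.le_ceil _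
  have htu : (t : ℝ) < 1 / ε + 1 := by rw [ht]; exact Nat.ceil_lt_add_one (by positivity)
  have htpos : (0 : ℝ) < t := by exact_mod_cast ht1
  have hεt1 : 1 ≤ ε * t := by
    have := mul_le_mul_of_nonneg_left htl hε0.le
    rwa [mul_one_div_cancel hε0.ne'] at this
  have hεt2 : ε * t ≤ 2 := by
    have := mul_lt_mul_of_pos_left htu hε0
    rw [mul_add, mul_one_div_cancel hε0.ne'] at this
    linarith
  have hNM : (Ncop (rowSet A) : ℝ) ≤ ((copies idPattern A).card : ℝ) := by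
    exact_mod_cast Ncop_le_copies A
  have hP : (polyP t : ℝ) ≤ c0 * (t : ℝ) ^ 19 := by
    rw [hc0]
    exact_mod_cast polyP_le t ht1
  have hN : Ncop (rowSet A) * polyP t < n ^ 4 := by
    have h3 : (Ncop (rowSet A) : ℝ) * (polyP t : ℝ)
        ≤ ((copies idPattern A).card : ℝ) * (c0 * (t : ℝ) ^ 19) :=
      mul_le_mul hNM hP (by positivity) (by positivity)
    have h4 := mul_lt_mul_of_pos_right hcon (show 0 < c0 * (t : ℝ) ^ 19 by positivity)
    have h5 : 1 / (c0 * 2 ^ 19) * ε ^ 19 * (n : ℝ) ^ (2 * 2) * (c0 * (t : ℝ) ^ 19)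
        = (ε * t) ^ 19 / 2 ^ 19 * (n : ℝ) ^ 4 := by
      field_simp
    have h6 : (ε * t) ^ 19 / 2 ^ 19 * (n : ℝ) ^ 4 ≤ (n : ℝ) ^ 4 := by
      have h7 : (ε * t) ^ 19 ≤ 2 ^ 19 := pow_le_pow_left₀ (by positivity) hεt2 19
      have h8 : (ε * t) ^ 19 / 2 ^ 19 ≤ 1 := by
        rw [div_le_one (by positivity)]; exact h7
      have h9 : (0 : ℝ) ≤ (n : ℝ) ^ 4 := by positivity
      nlinarith
    have h10 : ((Ncop (rowSet A) * polyP t : ℕ) : ℝ) < ((n ^ 4 : ℕ) : ℝ) := by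
      push_cast
      linarith
    exact_mod_cast h10
  obtain ⟨B, hB1, hB2⟩ := int_removal (rowSet A) n t ht1 (by simp) (by simp) hN
  have h1 := hfar _ (copies_empty_of_free B hB1)
  have h2 : (hamming A (fun r c => decide (c ∈ B r)) : ℝ) ≤ ((∑ r, sd (B r) (rowSet A r) : ℕ) : ℝ) := by
    exact_mod_cast hamming_le_sum A B
  have h3 : ((t * ∑ r, sd (B r) (rowSet A r) : ℕ) : ℝ) < ((n ^ 2 : ℕ) : ℝ) := by
    exact_mod_cast hB2
  push_cast at h3 h2
  have h4 : ε * (n : ℝ) ^ 2 ≤ ∑ r, (sd (B r) (rowSet A r) : ℝ) := h1.trans h2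
  have h5 := mul_le_mul_of_nonneg_left h4 htpos.le
  have h6 : (0 : ℝ) ≤ (n : ℝ) ^ 2 := by positivity
  nlinarith

/-- the other `2 × 2` permutation pattern -/
def antiPattern : Fin 2 → Fin 2 → Bool := fun i j => decide (i ≠ j)

theorem anti : PolyRemoval antiPattern := by
  have h := PolyRemoval.transform (sel true) (sel true)
    (fun b => !b) (sel_sel _) (sel_sel _) (by simp)
    (sel_mono _) (sel_mono _) _ base
  have heq : Tr (sel true) (sel true) (fun b => !b) idPattern = antiPattern := by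
    funext i j
    fin_cases i <;> fin_cases j <;> rfl
  rwa [heq] at h

/-- every `2 × 2` pattern with two different rows and two different columns -/
theorem all_distinct (H : Fin 2 → Fin 2 → Bool) (hr : H 0 ≠ H 1)
    (hc : (fun i => H i 0) ≠ (fun i => H i 1)) : PolyRemoval H := by
  have key : (∃ i0 j0 v, H = oddPattern i0 j0 v) ∨ H = idPattern ∨ H = antiPattern := by
    obtain ⟨a, ha⟩ : ∃ a, H 0 0 = a := ⟨_, rfl⟩
    obtain ⟨b, hb⟩ : ∃ b, H 0 1 = b := ⟨_, rfl⟩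
    obtain ⟨c, hc'⟩ : ∃ c, H 1 0 = c := ⟨_, rfl⟩
    obtain ⟨d, hd⟩ : ∃ d, H 1 1 = d := ⟨_, rfl⟩
    have hr' : ¬ (a = c ∧ b = d) := by
      rintro ⟨h1, h2⟩
      apply hr
      funext j
      fin_cases j
      · simp only [Fin.zero_eta]; rw [ha, hc', h1]
      · simp only [Fin.mk_one]; rw [hb, hd, h2]
    have hc'' : ¬ (a = b ∧ c = d) := by
      rintro ⟨h1, h2⟩
      apply hc
      funext i
      fin_cases i
      · simp only [Fin.zero_eta]; rw [ha, hb, h1]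
      · simp only [Fin.mk_one]; rw [hc', hd, h2]
    have ext4 : ∀ H' : Fin 2 → Fin 2 → Bool, H' 0 0 = a → H' 0 1 = b → H' 1 0 = c → H' 1 1 = d →
        H = H' := by
      intro H' e1 e2 e3 e4
      funext i j
      fin_cases i <;> fin_cases j
      · simp only [Fin.zero_eta]; rw [ha, e1]
      · simp only [Fin.zero_eta, Fin.mk_one]; rw [hb, e2]
      · simp only [Fin.zero_eta, Fin.mk_one]; rw [hc', e3]
      · simp only [Fin.mk_one]; rw [hd, e4]
    cases a <;> cases b <;> cases c <;> cases d <;>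
      first
        | exact absurd ⟨rfl, rfl⟩ hr'
        | exact absurd ⟨rfl, rfl⟩ hc''
        | exact Or.inr (Or.inl (ext4 _ rfl rfl rfl rfl))
        | exact Or.inr (Or.inr (ext4 _ rfl rfl rfl rfl))
        | exact Or.inl ⟨0, 0, true, ext4 _ rfl rfl rfl rfl⟩
        | exact Or.inl ⟨0, 0, false, ext4 _ rfl rfl rfl rfl⟩
        | exact Or.inl ⟨0, 1, true, ext4 _ rfl rfl rfl rfl⟩
        | exact Or.inl ⟨0, 1, false, ext4 _ rfl rfl rfl rfl⟩
        | exact Or.inl ⟨1, 0, true, ext4 _ rfl rfl rfl rfl⟩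
        | exact Or.inl ⟨1, 0, false, ext4 _ rfl rfl rfl rfl⟩
        | exact Or.inl ⟨1, 1, true, ext4 _ rfl rfl rfl rfl⟩
        | exact Or.inl ⟨1, 1, false, ext4 _ rfl rfl rfl rfl⟩
  rcases key with ⟨i0, j0, v, h⟩ | h | h
  · rw [h]; exact all_odd i0 j0 v
  · rw [h]; exact base
  · rw [h]; exact anti

end Vale.Agent.Lib.P037I
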